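import Mathlib
import Vale.Agent.Lib.P034.Width

namespace Vale.Agent.Results.P034.ClusterSupport

open Vale.Agent.Lib.P034

/-- Let `E` be a hypergraph on the finite set `X` of local width at most `D` (among the hyperedges
through any point, antichains for inclusion have at most `D` members; e.g. maximum degree at most
`D`). If a fractional cover `g` of `F` is supported on `E`-connected sets (and possibly the empty
set) and has cost at most `1/2` at `p`, then `F` is `p / (7077888 * D)`-small. -/
theorem result {X : Type*} [Fintype X] [DecidableEq X] (E : Finset (Finset X)) (D : ℕ) (hD : 1 ≤ D)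
    (hwidth : ∀ x : X, ∀ A : Finset (Finset X), A ⊆ E → (∀ U ∈ A, x ∈ U) →
      IsAntichain (· ⊆ ·) (A : Set (Finset X)) → A.card ≤ D)
    (F : Finset (Finset X)) (p : ℝ) (hp0 : 0 ≤ p) (hp1 : p ≤ 1)
    (g : Finset X → ℝ) (hg : IsFracCover g F)
    (hsupp : ∀ S, g S ≠ 0 → S = ∅ ∨ IsCluster E S)
    (hcost : fracCost g p ≤ 1 / 2) :
    IsSmall F (p / (7077888 * D)) :=
  cluster_support E D hD hwidth F p hp0 hp1 g hg hsupp hcost

end Vale.Agent.Results.P034.ClusterSupport
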