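import Mathlib
import Vale.Agent.Lib.P034.Graph

namespace Vale.Agent.Results.P034.ConnectedSupport

open Vale.Agent.Lib.P034

/-- Let `Γ` be a graph on the finite ground set `X` with all degrees at most `Δ`. If a fractional
cover `g` of `F` is supported on vertex sets inducing connected subgraphs of `Γ` (and possibly the
empty set) and has cost at most `1/2` at `p`, then `F` is `p / (7077888 * Δ)`-small. -/
theorem result {X : Type*} [Fintype X] [DecidableEq X] (Γ : SimpleGraph X) [DecidableRel Γ.Adj]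
    (Δ : ℕ) (hΔ : 1 ≤ Δ) (hdeg : ∀ v, Γ.degree v ≤ Δ)
    (F : Finset (Finset X)) (p : ℝ) (hp0 : 0 ≤ p) (hp1 : p ≤ 1)
    (g : Finset X → ℝ) (hg : IsFracCover g F)
    (hsupp : ∀ S, g S ≠ 0 → S = ∅ ∨ (Γ.induce (S : Set X)).Connected)
    (hcost : fracCost g p ≤ 1 / 2) :
    IsSmall F (p / (7077888 * Δ)) :=
  connected_support Γ Δ hΔ hdeg F p hp0 hp1 g hg hsupp hcost

end Vale.Agent.Results.P034.ConnectedSupport
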