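import Mathlib
import Vale.Agent.Lib.P034.Width

namespace Vale.Agent.Results.P034.LocalWidthSupport

open Vale.Agent.Lib.P034

/-- Talagrand's comparison of fractional and integral covers, with constant `7077888 * D`, for
fractional covers whose support has local width at most `D`: among the sets of the support that
contain any fixed point `x`, every antichain for inclusion has at most `D` members.
(Laminar supports have `D = 1`; a union of `D` laminar families, or a support in which every point
lies in at most `D` sets, has local width at most `D`.) No bound on the sizes of the sets is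
assumed, and `F` is an arbitrary family of subsets of the finite set `X`. -/
theorem result {X : Type*} [Fintype X] [DecidableEq X] (D : ℕ) (hD : 1 ≤ D)
    (F : Finset (Finset X)) (p : ℝ) (hp0 : 0 ≤ p) (hp1 : p ≤ 1)
    (g : Finset X → ℝ) (hg : IsFracCover g F)
    (hwidth : ∀ x : X, ∀ A : Finset (Finset X), (∀ S ∈ A, g S ≠ 0 ∧ x ∈ S) →
      IsAntichain (· ⊆ ·) (A : Set (Finset X)) → A.card ≤ D)
    (hcost : fracCost g p ≤ 1 / 2) :
    IsSmall F (p / (7077888 * D)) :=
  local_width_support D hD F p hp0 hp1 g hg hwidth hcost

end Vale.Agent.Results.P034.LocalWidthSupport
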