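import Mathlib
import Vale.Agent.Lib.P034.Core

namespace Vale.Agent.Results.P034.UnionClosedSupport

open Vale.Agent.Lib.P034

/-- Let `C` be a family of subsets of the finite set `X` that is closed under unions of
intersecting members and in which every nonempty member `S` is contained in at most `b ^ r`
members of size `r`, for every `r`. If a fractional cover `g` of `F` is supported on `C` (and
possibly the empty set) and has cost at most `1/2` at `p`, then `F` is `p / (3145728 * b)`-small. -/
theorem result {X : Type*} [Fintype X] [DecidableEq X] (F C : Finset (Finset X)) (b : ℝ) (hb : 1 ≤ b)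
    (hunion : ∀ R ∈ C, ∀ R' ∈ C, ¬ Disjoint R R' → R ∪ R' ∈ C)
    (hgrowth : ∀ S ∈ C, S.Nonempty → ∀ r : ℕ,
      ((C.filter (fun R => S ⊆ R ∧ R.card = r)).card : ℝ) ≤ b ^ r)
    (p : ℝ) (hp0 : 0 ≤ p) (hp1 : p ≤ 1) (g : Finset X → ℝ) (hg : IsFracCover g F)
    (hsupp : ∀ S, g S ≠ 0 → S = ∅ ∨ S ∈ C) (hcost : fracCost g p ≤ 1 / 2) :
    IsSmall F (p / (3145728 * b)) :=
  union_closed_support F C b hb hunion hgrowth p hp0 hp1 g hg hsupp hcost

end Vale.Agent.Results.P034.UnionClosedSupport
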